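import Vale.Agent.P181.R2.H350.Y2
import Vale.Agent.P181.R2.H71.Y1

set_option autoImplicit false

open scoped TensorProduct

namespace Vale.Agent.P181.FR

open Vale.Agent.P181 Vale.Agent.P181.H280

/-- Y2: rich mixed weights. -/
theorem rich_mix {m i : ℕ} (hi : 3 ≤ i) (him : i ≤ m) : ∃ N : ℕ, 0 < N ∧ ∀ h1 h2 R s : ℕ,
    R * s ≤ h1 * h2 →
    s ^ R ≤ plethMult (2 * i * R) (2 * N * (h1 + 1) + 2 * N * (h2 + 1)) m
      ((2 * i * N * (h1 + 1) * R) • om m 2 + (4 * N * (h2 + 1) * R) • om m i) :=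
  rich_mix_of (fun h1 h2 => family2 h1 h2) hi him

end Vale.Agent.P181.FR
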