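import Vale.Agent.P181.R2.H207.KDefs

set_option autoImplicit false

namespace Vale.Agent.P181.KT

open Finset

namespace H350

theorem Mn_nonempty {m : ℕ} (c : ℕ) (p : Fin m) : (Mn m c).Nonempty := by
  refine ⟨Pi.single p c, ?_⟩
  simp [Mn, Finset.mem_piAntidiag]

theorem ZZ_pos {m : ℕ} (c : ℕ) (p : Fin m) (η : Fin m → ℝ) : 0 < ZZ m c η :=
  Finset.sum_pos (fun _ _ => Real.exp_pos _) (Mn_nonempty c p)

theorem exp_half_le {y : ℝ} (h0 : 0 ≤ y) (h1 : y ≤ 1) : Real.exp (y / 2) ≤ 1 + y := by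
  have h := Real.add_one_le_exp (-(y / 2))
  have hm : Real.exp (y / 2) * Real.exp (-(y / 2)) = 1 := by
    rw [← Real.exp_add]; simp
  have hp : 0 < Real.exp (y / 2) := Real.exp_pos _
  have h2 : Real.exp (y / 2) * (1 - y / 2) ≤ 1 := by
    rw [← hm]
    exact mul_le_mul_of_nonneg_left (by linarith) hp.le
  have h3 : 1 ≤ (1 + y) * (1 - y / 2) := by nlinarith
  exact le_of_mul_le_mul_right (h2.trans h3) (by linarith)

theorem dot_le {m : ℕ} (p : Fin m) {ζ Δ : Fin m → ℝ} {c w s : ℝ} (hc : 0 < c) (hs : 0 ≤ s)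
    (hw : ∀ i j, c * (ζ i - ζ j) ≤ w) (hD : ∀ i, |Δ i| ≤ s * c) (h0 : ∑ i, Δ i = 0) :
    ∑ i, ζ i * Δ i ≤ m * (w * s) := by
  have h1 : ∑ i, ζ i * Δ i = ∑ i, (ζ i - ζ p) * Δ i := by
    simp only [sub_mul, Finset.sum_sub_distrib, ← Finset.mul_sum, h0]
    simp
  rw [h1]
  have h2 : ∀ i ∈ (Finset.univ : Finset (Fin m)), (ζ i - ζ p) * Δ i ≤ w * s := by
    intro i _
    have ha : c * |ζ i - ζ p| ≤ w := by
      rcases abs_cases (ζ i - ζ p) with h | h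
      · rw [h.1]; exact hw i p
      · rw [h.1]; have := hw p i; linarith
    calc (ζ i - ζ p) * Δ i ≤ |(ζ i - ζ p) * Δ i| := le_abs_self _
      _ = |ζ i - ζ p| * |Δ i| := abs_mul _ _
      _ ≤ |ζ i - ζ p| * (s * c) := mul_le_mul_of_nonneg_left (hD i) (abs_nonneg _)
      _ = (c * |ζ i - ζ p|) * s := by ring
      _ ≤ w * s := mul_le_mul_of_nonneg_right ha hs
  calc ∑ i, (ζ i - ζ p) * Δ i ≤ ∑ _i : Fin m, w * s := Finset.sum_le_sum h2
    _ = m * (w * s) := by simp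

theorem ZZ_const {m c : ℕ} {η ζ x : Fin m → ℝ} (p : Fin m) (hx : ∑ i, x i = c)
    (h : ∀ i, ζ i = ζ p) :
    ZZ m c (η + ζ) * Real.exp (-∑ i, ζ i * x i) = ZZ m c η := by
  have h1 : ∑ i, ζ i * x i = ζ p * c := by
    rw [← hx, Finset.mul_sum]
    exact Finset.sum_congr rfl (fun i _ => by rw [h i])
  rw [h1, ZZ, ZZ, Finset.sum_mul]
  refine Finset.sum_congr rfl (fun u hu => ?_)
  have hu' : ∑ i, (u i : ℝ) = c := by
    have := (Finset.mem_piAntidiag.1 hu).1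
    exact_mod_cast this
  rw [← Real.exp_add]
  congr 1
  have h2 : ∑ i, (η + ζ) i * (u i : ℝ) = ∑ i, η i * (u i : ℝ) + ζ p * c := by
    rw [← hu', Finset.mul_sum, ← Finset.sum_add_distrib]
    exact Finset.sum_congr rfl (fun i _ => by rw [Pi.add_apply, h i]; ring)
  rw [h2]; ring

/-- The core inequality. -/
theorem core (h7 : ∀ {m c : ℕ} {η x ζ : Fin m → ℝ} {κ T : ℝ} (i j : Fin m), 0 < κ → 0 ≤ T → 1 ≤ c →
      Mean m c η x → ∑ i, x i = c → (∀ i, 0 ≤ x i) → κ * c ≤ |x i - x j| →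
      |c * (η i - η j)| ≤ T → (∀ p q, c * (ζ p - ζ q) ≤ 1) →
      (1 + Real.exp (-T) * κ ^ 2 / 16 * (c * (ζ i - ζ j)) ^ 2) * ZZ m c η ≤
        ZZ m c (η + ζ) * Real.exp (-∑ i, ζ i * x i))
    (h8 : ∀ {m c : ℕ} (η ζ x : Fin m → ℝ) {r : ℝ}, 1 ≤ r → 0 < ZZ m c η →
      (ZZ m c (η + ζ) * Real.exp (-∑ i, ζ i * x i) / ZZ m c η) ^ r ≤
        ZZ m c (η + r • ζ) * Real.exp (-(r * ∑ i, ζ i * x i)) / ZZ m c η)
    {m : ℕ} (p : Fin m) {κ T : ℝ} (hκ : 0 < κ) (hT : 0 ≤ T) {C b c : ℕ}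
    (hC : (m : ℝ) ^ 3 / (Real.exp (-T) * κ ^ 2 / 16) ≤ C)
    (hb : 8 * (m : ℝ) ^ 3 / (Real.exp (-T) * κ ^ 2 / 16) ^ 2 ≤ b)
    {η ζ x Δ : Fin m → ℝ} (hc : 1 ≤ c) (hM : Mean m c η x) (hx : ∑ i, x i = c)
    (hx0 : ∀ i, 0 ≤ x i) (hg : ∀ i j, i ≠ j → κ * c ≤ |x i - x j|)
    (hη : ∀ i j, c * (η i - η j) ≤ T) (hΔ : ∑ i, Δ i = 0)
    (hD : ∀ i, Δ i ^ 2 ≤ 2 * m * b * (c : ℝ) ^ 2) :
    Real.exp (∑ i, ζ i * Δ i - C) ≤
      (ZZ m c (η + ζ) * Real.exp (-∑ i, ζ i * x i) / ZZ m c η) ^ b := by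
  have hZ := ZZ_pos c p η
  have hc0 : (0 : ℝ) < c := by exact_mod_cast hc
  have hm0 : (0 : ℝ) < m := by exact_mod_cast (Fin.pos p)
  set g : ℝ := Real.exp (-T) * κ ^ 2 / 16 with hgdef
  have hg0 : 0 < g := by positivity
  set s : ℝ := √(2 * m * b) with hs
  have hs0 : 0 ≤ s := Real.sqrt_nonneg _
  have hs2 : s ^ 2 = 2 * m * b := Real.sq_sqrt (by positivity)
  have hD' : ∀ i, |Δ i| ≤ s * c := by
    intro i
    refine abs_le_of_sq_le_sq ?_ (by positivity)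
    rw [mul_pow, hs2]
    exact hD i
  haveI : Nonempty (Fin m × Fin m) := ⟨(p, p)⟩
  obtain ⟨⟨i0, j0⟩, hmax⟩ := Finite.exists_max (fun q : Fin m × Fin m => c * (ζ q.1 - ζ q.2))
  set ω : ℝ := c * (ζ i0 - ζ j0) with hω
  have hω' : ∀ i j, c * (ζ i - ζ j) ≤ ω := fun i j => hmax (i, j)
  have hω0 : 0 ≤ ω := by have := hω' p p; simpa using this
  have hdot : ∑ i, ζ i * Δ i ≤ m * (ω * s) := dot_le p hc0 hs0 hω' hD' hΔ
  rcases hω0.eq_or_lt with h0 | hpos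
  · -- all `ζ i` are equal
    have hall : ∀ i, ζ i = ζ p := by
      intro i
      have h1 := hω' i p
      have h2 := hω' p i
      rw [← h0] at h1 h2
      have h3 : ζ i - ζ p ≤ 0 := by
        by_contra hcon
        push_neg at hcon
        have := mul_pos hc0 hcon
        linarith
      have h4 : ζ p - ζ i ≤ 0 := by
        by_contra hcon
        push_neg at hcon
        have := mul_pos hc0 hcon
        linarith
      linarith
    rw [ZZ_const p hx hall, div_self hZ.ne', one_pow]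
    refine Real.exp_le_one_iff.2 ?_
    rw [← h0] at hdot
    have : (0 : ℝ) ≤ C := Nat.cast_nonneg _
    simp at hdot
    linarith
  have hne : i0 ≠ j0 := by
    rintro rfl
    simp [hω] at hpos
  have hκ1 : κ ≤ 1 := by
    have h1 := hg i0 j0 hne
    have hle : ∀ i, x i ≤ c := fun i => by
      rw [← hx]
      exact Finset.single_le_sum (f := x) (fun j _ => hx0 j) (Finset.mem_univ i)
    have h2 : |x i0 - x j0| ≤ c := by
      rw [abs_le]
      constructor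
      · have := hle j0; have := hx0 i0; linarith
      · have := hle i0; have := hx0 j0; linarith
    by_contra hcon
    push_neg at hcon
    nlinarith
  have hg1 : g ≤ 1 := by
    have h1 : Real.exp (-T) ≤ 1 := Real.exp_le_one_iff.2 (by linarith)
    have h2 : κ ^ 2 ≤ 1 := pow_le_one₀ hκ.le hκ1
    have h3 : Real.exp (-T) * κ ^ 2 ≤ 1 := mul_le_one₀ h1 (by positivity) h2
    rw [hgdef]; linarith
  have hηT : |c * (η i0 - η j0)| ≤ T := by
    rw [abs_le]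
    constructor
    · have := hη j0 i0; nlinarith
    · exact hη i0 j0
  rcases le_or_gt ω 1 with hle | hgt
  · -- `ω ≤ 1`
    have hR := h7 (ζ := ζ) i0 j0 hκ hT hc hM hx hx0 (hg i0 j0 hne) hηT
      (fun a b => (hω' a b).trans hle)
    rw [← hω, ← hgdef, ← le_div_iff₀ hZ] at hR
    have hy0 : 0 ≤ g * ω ^ 2 := by positivity
    have hy1 : g * ω ^ 2 ≤ 1 := mul_le_one₀ hg1 (by positivity) (pow_le_one₀ hω0 hle)
    have h1 := (exp_half_le hy0 hy1).trans hR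
    have h2 : Real.exp (b * (g * ω ^ 2 / 2)) ≤
        (ZZ m c (η + ζ) * Real.exp (-∑ i, ζ i * x i) / ZZ m c η) ^ b := by
      rw [Real.exp_nat_mul]
      exact pow_le_pow_left₀ (Real.exp_pos _).le h1 b
    refine le_trans (Real.exp_le_exp.2 ?_) h2
    have h3 : 4 * m * g * (b * (g * ω ^ 2 / 2) + m ^ 3 / g - m * (ω * s)) =
        (g * ω * s - 2 * m ^ 2) ^ 2 := by
      have e1 : 4 * m * g * (m ^ 3 / g) = 4 * (m : ℝ) ^ 4 := by
        field_simp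
      have e2 : (g * ω * s - 2 * m ^ 2) ^ 2 = g ^ 2 * ω ^ 2 * s ^ 2 - 4 * m ^ 2 * g * ω * s
          + 4 * (m : ℝ) ^ 4 := by ring
      rw [e2, hs2]
      have e3 : 4 * m * g * (b * (g * ω ^ 2 / 2) + m ^ 3 / g - m * (ω * s)) =
        4 * m * g * (b * (g * ω ^ 2 / 2)) + 4 * m * g * (m ^ 3 / g)
          - 4 * m * g * (m * (ω * s)) := by ring
      rw [e3, e1]
      ring
    have h4 : 0 ≤ b * (g * ω ^ 2 / 2) + m ^ 3 / g - m * (ω * s) := by
      have h5 : 0 ≤ 4 * m * g * (b * (g * ω ^ 2 / 2) + m ^ 3 / g - m * (ω * s)) := by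
        rw [h3]; positivity
      exact nonneg_of_mul_nonneg_right h5 (by positivity)
    linarith
  · -- `1 < ω`
    have hω1 : (0 : ℝ) < ω := hpos
    have hz : ∀ a b, c * ((ω⁻¹ • ζ) a - (ω⁻¹ • ζ) b) = ω⁻¹ * (c * (ζ a - ζ b)) := by
      intro a b
      simp only [Pi.smul_apply, smul_eq_mul]; ring
    have hR := h7 (ζ := ω⁻¹ • ζ) i0 j0 hκ hT hc hM hx hx0 (hg i0 j0 hne) hηT
      (fun a b => by
        rw [hz]
        calc ω⁻¹ * (c * (ζ a - ζ b)) ≤ ω⁻¹ * ω :=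
              mul_le_mul_of_nonneg_left (hω' a b) (inv_nonneg.2 hω0)
          _ = 1 := inv_mul_cancel₀ hω1.ne')
    rw [hz, ← hω, inv_mul_cancel₀ hω1.ne', ← hgdef, one_pow, mul_one, ← le_div_iff₀ hZ] at hR
    have h1 : Real.exp (g / 2) ≤ _ := (exp_half_le hg0.le hg1).trans hR
    have h8' := h8 η (ω⁻¹ • ζ) x hgt.le hZ
    have hsm : ω • (ω⁻¹ • ζ) = ζ := smul_inv_smul₀ hω1.ne' ζ
    have hsum : ω * ∑ i, (ω⁻¹ • ζ) i * x i = ∑ i, ζ i * x i := by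
      rw [Finset.mul_sum]
      refine Finset.sum_congr rfl (fun i _ => ?_)
      simp only [Pi.smul_apply, smul_eq_mul]
      field_simp
    rw [hsm, hsum] at h8'
    have h2 : Real.exp (g / 2 * ω) ≤
        ZZ m c (η + ζ) * Real.exp (-∑ i, ζ i * x i) / ZZ m c η := by
      refine le_trans ?_ h8'
      rw [Real.exp_mul]
      exact Real.rpow_le_rpow (Real.exp_pos _).le h1 hω0
    have h3 : Real.exp (b * (g / 2 * ω)) ≤
        (ZZ m c (η + ζ) * Real.exp (-∑ i, ζ i * x i) / ZZ m c η) ^ b := by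
      rw [Real.exp_nat_mul]
      exact pow_le_pow_left₀ (Real.exp_pos _).le h2 b
    refine le_trans (Real.exp_le_exp.2 ?_) h3
    have hb' : 8 * (m : ℝ) ^ 3 ≤ b * g ^ 2 := by
      rwa [div_le_iff₀ (by positivity)] at hb
    have h4 : m * s ≤ b * g / 2 := by
      refine abs_le_of_sq_le_sq' ?_ (by positivity) |>.2
      rw [mul_pow, hs2]
      have hb0 : (0 : ℝ) ≤ b := Nat.cast_nonneg _
      nlinarith [mul_le_mul_of_nonneg_left hb' hb0]
    have h5 : m * (ω * s) ≤ b * (g / 2 * ω) := by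
      calc m * (ω * s) = ω * (m * s) := by ring
        _ ≤ ω * (b * g / 2) := mul_le_mul_of_nonneg_left h4 hω0
        _ = b * (g / 2 * ω) := by ring
    have : (0 : ℝ) ≤ C := Nat.cast_nonneg _
    linarith

end H350

/-- K9 (smoothness; from K7 and K8). -/
theorem k9 (h7 : ∀ {m c : ℕ} {η x ζ : Fin m → ℝ} {κ T : ℝ} (i j : Fin m), 0 < κ → 0 ≤ T → 1 ≤ c →
      Mean m c η x → ∑ i, x i = c → (∀ i, 0 ≤ x i) → κ * c ≤ |x i - x j| →
      |c * (η i - η j)| ≤ T → (∀ p q, c * (ζ p - ζ q) ≤ 1) →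
      (1 + Real.exp (-T) * κ ^ 2 / 16 * (c * (ζ i - ζ j)) ^ 2) * ZZ m c η ≤
        ZZ m c (η + ζ) * Real.exp (-∑ i, ζ i * x i))
    (h8 : ∀ {m c : ℕ} (η ζ x : Fin m → ℝ) {r : ℝ}, 1 ≤ r → 0 < ZZ m c η →
      (ZZ m c (η + ζ) * Real.exp (-∑ i, ζ i * x i) / ZZ m c η) ^ r ≤
        ZZ m c (η + r • ζ) * Real.exp (-(r * ∑ i, ζ i * x i)) / ZZ m c η) :
    ∀ (m : ℕ) {κ T : ℝ}, 0 < κ → 0 ≤ T → ∃ C b0 : ℕ, ∀ (c b : ℕ)
      (η η' x Δ : Fin m → ℝ), 1 ≤ c → b0 ≤ b → Mean m c η x → ∑ i, x i = c → (∀ i, 0 ≤ x i) →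
      (∀ i j, i ≠ j → κ * c ≤ |x i - x j|) → (∀ i j, c * (η i - η j) ≤ T) → ∑ i, Δ i = 0 →
      (∀ i, Δ i ^ 2 ≤ 2 * m * b * (c : ℝ) ^ 2) →
      ZZ m c η ^ b * Real.exp (-∑ i, η i * (b * x i + Δ i)) ≤
        Real.exp C * (ZZ m c η' ^ b * Real.exp (-∑ i, η' i * (b * x i + Δ i))) := by
  intro m κ T hκ hT
  refine ⟨⌈(m : ℝ) ^ 3 / (Real.exp (-T) * κ ^ 2 / 16)⌉₊,
    ⌈8 * (m : ℝ) ^ 3 / (Real.exp (-T) * κ ^ 2 / 16) ^ 2⌉₊, ?_⟩
  intro c b η η' x Δ hc hb hM hx hx0 hg hη hΔ hD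
  have hm : 0 < m := by
    rcases Nat.eq_zero_or_pos m with h | h
    · subst h
      simp at hx
      have : c = 0 := by exact_mod_cast hx.symm
      omega
    · exact h
  have p : Fin m := ⟨0, hm⟩
  have hZ := H350.ZZ_pos c p η
  have hcore := H350.core h7 h8 p hκ hT (Nat.le_ceil _) ((Nat.le_ceil _).trans (Nat.cast_le.2 hb))
    (ζ := η' - η) hc hM hx hx0 hg hη hΔ hD
  have hadd : η + (η' - η) = η' := by abel
  rw [hadd, div_pow, mul_pow, ← Real.exp_nat_mul, le_div_iff₀ (pow_pos hZ b)] at hcore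
  set C : ℕ := ⌈(m : ℝ) ^ 3 / (Real.exp (-T) * κ ^ 2 / 16)⌉₊
  have e1 : ∑ i, (η' - η) i * Δ i = ∑ i, η' i * Δ i - ∑ i, η i * Δ i := by
    rw [← Finset.sum_sub_distrib]
    exact Finset.sum_congr rfl (fun i _ => by rw [Pi.sub_apply]; ring)
  have e2 : ∑ i, (η' - η) i * x i = ∑ i, η' i * x i - ∑ i, η i * x i := by
    rw [← Finset.sum_sub_distrib]
    exact Finset.sum_congr rfl (fun i _ => by rw [Pi.sub_apply]; ring)
  have e3 : ∀ θ : Fin m → ℝ, ∑ i, θ i * (b * x i + Δ i) =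
      b * ∑ i, θ i * x i + ∑ i, θ i * Δ i := by
    intro θ
    rw [Finset.mul_sum, ← Finset.sum_add_distrib]
    exact Finset.sum_congr rfl (fun i _ => by ring)
  rw [e3, e3]
  rw [e1, e2] at hcore
  set A := ∑ i, η i * x i
  set A' := ∑ i, η' i * x i
  set B := ∑ i, η i * Δ i
  set B' := ∑ i, η' i * Δ i
  have hE : 0 < Real.exp (C - (B' - B) - (b * A + B)) := Real.exp_pos _
  have h1 := mul_le_mul_of_nonneg_right hcore hE.le
  calc ZZ m c η ^ b * Real.exp (-(b * A + B))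
      = Real.exp (B' - B - C) * ZZ m c η ^ b * Real.exp (C - (B' - B) - (b * A + B)) := by
        rw [mul_right_comm, ← Real.exp_add, mul_comm]
        congr 2
        ring
    _ ≤ _ := h1
    _ = Real.exp C * (ZZ m c η' ^ b * Real.exp (-(b * A' + B'))) := by
        rw [mul_assoc, ← Real.exp_add, mul_left_comm, ← Real.exp_add]
        congr 2
        ring

end Vale.Agent.P181.KT
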