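import Vale.Agent.P181.R2.H350.W8
import Vale.Agent.P181.R2.H923.W6
import Vale.Agent.P181.R2.H71.W7

set_option autoImplicit false

open scoped TensorProduct

namespace Vale.Agent.P181.FR

open Vale.Agent.P181 Vale.Agent.P181.H280

/-- W8: rich rectangular weights. -/
theorem rich_rect {m i : ℕ} (hi : 3 ≤ i) (him : i ≤ m) : ∃ N : ℕ, ∀ c h R s : ℕ,
    N * (h + 1) ≤ c → R * s ≤ h * h →
    s ^ R ≤ plethMult (2 * i * R) (2 * c) m ((4 * c * R) • om m i) :=
  rich_rect_of (fun G hG hsy hw hd P hli => rich_of_family G hG hsy hw hd P hli)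
    (fun h1 h2 => family h1 h2) hi him

end Vale.Agent.P181.FR
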