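import Vale.Agent.P181.R2.H959.WDefs
import Vale.Agent.P181.R2.H425.W11
import Vale.Agent.P181.R2.H684.W10

set_option autoImplicit false

open scoped TensorProduct

namespace Vale.Agent.P181.FR

open Vale.Agent.P181 Vale.Agent.P181.H280

namespace H350

/-- The numbers of Y6. -/
theorem mix_numbers {N D4 D5 C p q r x y g2 gi : ℝ} (hN : 1 ≤ N) (hD4 : 0 < D4) (hD5 : 0 < D5)
    (hC : C = 2 * (N * D5) ^ 2 + 2 * N * D5 * D4 + 2 * N * D4 + D4 + D5)
    (hq : 0 < q) (hp : 0 ≤ p) (hpq : p ≤ q) (hr : q ^ 2 = r) (hy0 : 0 ≤ y)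
    (h1 : C * p ≤ y) (h2 : C * r ≤ x * y) (hg : y ≤ N * gi) (hgi : gi < D5 * q)
    (hg2 : g2 = x - y) :
    D4 * p ≤ g2 ∧ D4 * p ≤ gi ∧ D4 * r ≤ g2 * gi := by
  have hN0 : 0 < N := by linarith
  have hND : 0 < N * D5 := mul_pos hN0 hD5
  have hC0 : 0 < C := by rw [hC]; positivity
  have hr0 : 0 < r := by rw [← hr]; positivity
  have hyq : y ≤ N * D5 * q := by
    calc y ≤ N * gi := hg
      _ ≤ N * (D5 * q) := mul_le_mul_of_nonneg_left hgi.le hN0.le
      _ = N * D5 * q := by ring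
  have hx0 : 0 < x := by
    by_contra hcon
    push Not at hcon
    have h3 : x * y ≤ 0 := mul_nonpos_of_nonpos_of_nonneg hcon hy0
    have h4 : 0 < C * r := mul_pos hC0 hr0
    linarith
  have hx : C * q ≤ x * (N * D5) := by
    have h3 : C * q * q ≤ x * (N * D5) * q := by
      calc C * q * q = C * r := by rw [← hr]; ring
        _ ≤ x * y := h2
        _ ≤ x * (N * D5 * q) := mul_le_mul_of_nonneg_left hyq hx0.le
        _ = x * (N * D5) * q := by ring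
    exact le_of_mul_le_mul_right h3 hq
  -- `x ≥ 2 N D5 q ≥ 2 y`
  have hx2 : 2 * (N * D5) * q ≤ x := by
    have h3 : 2 * (N * D5) * q * (N * D5) ≤ x * (N * D5) := by
      refine le_trans ?_ hx
      have h4 : 2 * (N * D5) ^ 2 ≤ C := by
        rw [hC]
        have : 0 ≤ 2 * N * D5 * D4 + 2 * N * D4 + D4 + D5 := by positivity
        linarith
      calc 2 * (N * D5) * q * (N * D5) = 2 * (N * D5) ^ 2 * q := by ring
        _ ≤ C * q := mul_le_mul_of_nonneg_right h4 hq.le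
    exact le_of_mul_le_mul_right h3 hND
  have hxD : 2 * D4 * q ≤ x := by
    have h3 : 2 * D4 * q * (N * D5) ≤ x * (N * D5) := by
      refine le_trans ?_ hx
      have h4 : 2 * N * D5 * D4 ≤ C := by
        rw [hC]
        have : 0 ≤ 2 * (N * D5) ^ 2 + 2 * N * D4 + D4 + D5 := by positivity
        linarith
      calc 2 * D4 * q * (N * D5) = 2 * N * D5 * D4 * q := by ring
        _ ≤ C * q := mul_le_mul_of_nonneg_right h4 hq.le
    exact le_of_mul_le_mul_right h3 hND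
  have hg2x : x / 2 ≤ g2 := by rw [hg2]; linarith
  have e1 : D4 * p ≤ g2 := by
    have : D4 * p ≤ D4 * q := mul_le_mul_of_nonneg_left hpq hD4.le
    linarith
  have hCN : 2 * N * D4 ≤ C := by
    rw [hC]
    have : 0 ≤ 2 * (N * D5) ^ 2 + 2 * N * D5 * D4 + D4 + D5 := by positivity
    linarith
  have hgiy : y / N ≤ gi := by
    rw [div_le_iff₀ hN0]; linarith
  have e2 : D4 * p ≤ gi := by
    refine le_trans ?_ hgiy
    rw [le_div_iff₀ hN0]
    refine le_trans ?_ h1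
    calc D4 * p * N = N * D4 * p := by ring
      _ ≤ C * p := mul_le_mul_of_nonneg_right (by nlinarith [mul_pos hN0 hD4]) hp
  refine ⟨e1, e2, ?_⟩
  have h5 : x / 2 * (y / N) ≤ g2 * gi :=
    mul_le_mul hg2x hgiy (div_nonneg hy0 hN0.le) (le_trans (by positivity) hg2x)
  refine le_trans ?_ h5
  have h6 : x / 2 * (y / N) = x * y / (2 * N) := by
    field_simp
  rw [h6, le_div_iff₀ (by positivity)]
  refine le_trans ?_ h2
  calc D4 * r * (2 * N) = 2 * N * D4 * r := by ring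
    _ ≤ C * r := mul_le_mul_of_nonneg_right hCN hr0.le

end H350

/-- Y6 from Y4 and Y5. -/
theorem all_mix_of
    (Y4 : ∀ {m i : ℕ}, 3 ≤ i → i ≤ m → ∀ {ε : ℝ}, 0 < ε →
      ∃ C : ℝ, 0 < C ∧ ∀ (a b : ℕ) (g : ℕ → ℕ), C * a ≤ b →
      ∑ j ∈ Finset.Icc 1 m, j * g j = a * b →
      C * (a : ℝ) ^ (1 + ε) ≤ g 2 → C * (a : ℝ) ^ (1 + ε) ≤ g i →
      C * (a : ℝ) ^ (3 + ε) ≤ (g 2 : ℝ) * g i →
      plethMult a b m (gw m g) ≤ plethMult b a m (gw m g))
    (Y5 : ∀ {m i : ℕ}, 3 ≤ i → i ≤ m → ∀ {ε : ℝ}, 0 < ε →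
      ∃ C : ℝ, 0 < C ∧ ∀ (a b : ℕ) (g : ℕ → ℕ), C * a ≤ b →
      ∑ j ∈ Finset.Icc 1 m, j * g j = a * b → C * (a : ℝ) ^ (3 / 2 + ε) ≤ g i →
      plethMult a b m (gw m g) ≤ plethMult b a m (gw m g))
    (n : ℕ) {ε : ℝ} (hε : 0 < ε) : ∃ C : ℝ, 0 < C ∧
    ∀ (a b : ℕ) (lam : Fin (n + 3) → ℕ), C * a ≤ b → C * (a : ℝ) ^ (1 + ε) ≤ lam 2 →
    C * (a : ℝ) ^ (3 + ε) ≤ (lam 1 : ℝ) * lam 2 →
    plethMult a b (n + 3) lam ≤ plethMult b a (n + 3) lam := by
  obtain ⟨ε', hε'⟩ : ∃ ε' : ℝ, ε' = min ε 1 := ⟨_, rfl⟩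
  have h0' : 0 < ε' := by rw [hε']; exact lt_min hε one_pos
  have h1' : ε' ≤ 1 := by rw [hε']; exact min_le_right _ _
  have hle' : ε' ≤ ε := by rw [hε']; exact min_le_left _ _
  choose! C4 hC4 hC4' using (fun i (h : 3 ≤ i ∧ i ≤ n + 3) => Y4 h.1 h.2 h0')
  choose! C5 hC5 hC5' using (fun i (h : 3 ≤ i ∧ i ≤ n + 3) => Y5 h.1 h.2 (half_pos h0'))
  set D4 : ℝ := ∑ i ∈ Finset.range (n + 4), |C4 i| + 1 with hD4
  set D5 : ℝ := ∑ i ∈ Finset.range (n + 4), |C5 i| + 1 with hD5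
  have hle4 : ∀ i, i ≤ n + 3 → C4 i ≤ D4 := fun i hi => by
    have := Finset.single_le_sum (f := fun i => |C4 i|) (fun _ _ => abs_nonneg _)
      (Finset.mem_range.2 (show i < n + 4 by omega))
    have h2 := le_abs_self (C4 i)
    rw [hD4]
    linarith
  have hle5 : ∀ i, i ≤ n + 3 → C5 i ≤ D5 := fun i hi => by
    have := Finset.single_le_sum (f := fun i => |C5 i|) (fun _ _ => abs_nonneg _)
      (Finset.mem_range.2 (show i < n + 4 by omega))
    have h2 := le_abs_self (C5 i)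
    rw [hD5]
    linarith
  have hD4p : 0 < D4 := by
    rw [hD4]
    have : 0 ≤ ∑ i ∈ Finset.range (n + 4), |C4 i| := Finset.sum_nonneg (fun _ _ => abs_nonneg _)
    linarith
  have hD5p : 0 < D5 := by
    rw [hD5]
    have : 0 ≤ ∑ i ∈ Finset.range (n + 4), |C5 i| := Finset.sum_nonneg (fun _ _ => abs_nonneg _)
    linarith
  set N : ℝ := (n : ℝ) + 1 with hN
  have hN1 : 1 ≤ N := by
    rw [hN]
    have : (0 : ℝ) ≤ n := Nat.cast_nonneg _
    linarith
  have hN0 : 0 < N := by linarith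
  obtain ⟨C, hC⟩ : ∃ C : ℝ, C = 2 * (N * D5) ^ 2 + 2 * N * D5 * D4 + 2 * N * D4 + D4 + D5 :=
    ⟨_, rfl⟩
  have hCp : 0 < C := by rw [hC]; positivity
  have hCD4 : D4 ≤ C := by
    rw [hC]
    have : 0 ≤ 2 * (N * D5) ^ 2 + 2 * N * D5 * D4 + 2 * N * D4 + D5 := by positivity
    linarith
  have hCD5 : D5 ≤ C := by
    rw [hC]
    have : 0 ≤ 2 * (N * D5) ^ 2 + 2 * N * D5 * D4 + 2 * N * D4 + D4 := by positivity
    linarith
  refine ⟨C, hCp, fun a b lam hab h1 h2 => ?_⟩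
  by_cases hz : plethMult a b (n + 3) lam = 0
  · rw [hz]
    exact Nat.zero_le _
  have hne : hwSpace lam (plethAct a b (n + 3)) ≠ ⊥ := by
    intro h
    apply hz
    rw [plethMult, h, finrank_bot]
  obtain ⟨x, hx, hx0⟩ := Submodule.exists_mem_ne_zero_of_ne_bot hne
  have hanti := hw_antitone hx hx0
  have hsum : ∑ i, lam i = a * b := hw_sum hx hx0
  have hsg : ∑ j ∈ Finset.Icc 1 (n + 3), j * W11.gap lam j = a * b := by
    rw [W11.sum_gap hanti, hsum]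
  have hl1 : W11.ext lam 1 = lam 1 := by
    rw [W11.ext, dif_pos (by omega)]
    exact congrArg lam (Fin.ext (by simp))
  have hl2 : W11.ext lam 2 = lam 2 := by
    rw [W11.ext, dif_pos (by omega)]
    exact congrArg lam (Fin.ext (by simp [Nat.mod_eq_of_lt]))
  have h21 : lam 2 ≤ lam 1 := by
    rw [← hl1, ← hl2]
    exact W11.ext_anti hanti 1
  have hgap2 : (W11.gap lam 2 : ℝ) = (lam 1 : ℝ) - lam 2 := by
    have : W11.gap lam 2 = lam 1 - lam 2 := by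
      rw [W11.gap, ← hl1, ← hl2]
    rw [this, Nat.cast_sub h21]
  obtain ⟨i, hi, hmax⟩ := Finset.exists_max_image (Finset.Ioc 2 (n + 3)) (W11.gap lam)
    ⟨3, Finset.mem_Ioc.2 ⟨by omega, by omega⟩⟩
  have hi' := Finset.mem_Ioc.1 hi
  have hi3 : 3 ≤ i ∧ i ≤ n + 3 := ⟨by omega, hi'.2⟩
  have hgi : (lam 2 : ℝ) ≤ N * W11.gap lam i := by
    have h3 : lam 2 ≤ (n + 1) * W11.gap lam i := by
      rw [← hl2, ← W11.ext_eq hanti 2 (by omega)]
      refine (Finset.sum_le_card_nsmul _ _ _ hmax).trans ?_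
      rw [Nat.card_Ioc, smul_eq_mul]
      have : n + 3 - 2 = n + 1 := by omega
      rw [this]
    rw [hN]
    exact_mod_cast h3
  have ha0 : (0 : ℝ) ≤ a := Nat.cast_nonneg a
  have hmono : ∀ s : ℝ, 0 < s → (a : ℝ) ^ (s + ε') ≤ (a : ℝ) ^ (s + ε) := by
    intro s hs
    rcases Nat.eq_zero_or_pos a with h | h
    · subst h
      rw [Nat.cast_zero, Real.zero_rpow (by linarith), Real.zero_rpow (by linarith)]
    · exact Real.rpow_le_rpow_of_exponent_le (by exact_mod_cast h) (by linarith)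
  have hp : C * (a : ℝ) ^ (1 + ε') ≤ lam 2 :=
    (mul_le_mul_of_nonneg_left (hmono 1 one_pos) hCp.le).trans h1
  have hr : C * (a : ℝ) ^ (3 + ε') ≤ (lam 1 : ℝ) * lam 2 :=
    (mul_le_mul_of_nonneg_left (hmono 3 (by norm_num)) hCp.le).trans h2
  by_cases hcase : D5 * (a : ℝ) ^ (3 / 2 + ε' / 2) ≤ W11.gap lam i
  · have h3 := hC5' i hi3 a b (W11.gap lam)
      ((mul_le_mul_of_nonneg_right ((hle5 i hi'.2).trans hCD5) ha0).trans hab) hsg
      ((mul_le_mul_of_nonneg_right (hle5 i hi'.2) (Real.rpow_nonneg ha0 _)).trans hcase)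
    rwa [W11.gw_gap hanti] at h3
  · push Not at hcase
    have ha1 : 1 ≤ a := by
      rcases Nat.eq_zero_or_pos a with h | h
      · subst h
        rw [Nat.cast_zero, Real.zero_rpow (by linarith), mul_zero] at hcase
        exact absurd hcase (not_lt.2 (Nat.cast_nonneg _))
      · exact h
    have ha1' : (1 : ℝ) ≤ a := by exact_mod_cast ha1
    have hapos : (0 : ℝ) < a := by linarith
    have hq : 0 < (a : ℝ) ^ (3 / 2 + ε' / 2) := Real.rpow_pos_of_pos hapos _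
    have hqr : ((a : ℝ) ^ (3 / 2 + ε' / 2)) ^ 2 = (a : ℝ) ^ (3 + ε') := by
      rw [← Real.rpow_natCast, ← Real.rpow_mul ha0]
      congr 1
      push_cast
      ring
    have hpq : (a : ℝ) ^ (1 + ε') ≤ (a : ℝ) ^ (3 / 2 + ε' / 2) :=
      Real.rpow_le_rpow_of_exponent_le ha1' (by linarith)
    obtain ⟨e1, e2, e3⟩ := H350.mix_numbers hN1 hD4p hD5p hC hq
      (Real.rpow_nonneg ha0 _) hpq hqr (Nat.cast_nonneg _) hp hr hgi hcase hgap2
    have h3 := hC4' i hi3 a b (W11.gap lam)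
      ((mul_le_mul_of_nonneg_right ((hle4 i hi'.2).trans hCD4) ha0).trans hab) hsg
      ((mul_le_mul_of_nonneg_right (hle4 i hi'.2) (Real.rpow_nonneg ha0 _)).trans e1)
      ((mul_le_mul_of_nonneg_right (hle4 i hi'.2) (Real.rpow_nonneg ha0 _)).trans e2)
      ((mul_le_mul_of_nonneg_right (hle4 i hi'.2) (Real.rpow_nonneg ha0 _)).trans e3)
    rwa [W11.gw_gap hanti] at h3

end Vale.Agent.P181.FR
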