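import Vale.Agent.P181.R2.H350.PosAll
import Vale.Agent.P181.R2.H350.RichRect
import Vale.Agent.P181.R2.H350.RichMix
import Vale.Agent.P181.R2.H350.Y6
import Vale.Agent.P181.R2.H424.Y4
import Vale.Agent.P181.R2.H424.Y5
import Vale.Agent.P181.R2.H822.Y3
import Vale.Agent.P181.R2.H280.AllWide

set_option autoImplicit false

open scoped TensorProduct

namespace Vale.Agent.P181.FR

open Vale.Agent.P181 Vale.Agent.P181.H280

/-- Y3. -/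
theorem gap_core_eps {m i : ℕ} (hi : 2 ≤ i) (him : i ≤ m) : ∃ K : ℕ, ∀ (a b B c S : ℕ) (u g : ℕ → ℕ),
    i ∣ B → K ≤ B → K + c ≤ a → B + K ≤ b → (∀ j, u j ≤ g j) →
    ∑ j ∈ Finset.Icc 1 m, j * u j = c * B → ∑ j ∈ Finset.Icc 1 m, j * g j = a * b →
    u i + K * a ≤ g i → S ≤ plethMult B c m (gw m u) → S ≤ plethMult b a m (gw m g) :=
  H822Y.gap_core_of hi him (pos_all hi him)

/-- Y4. -/
theorem gap_mix {m i : ℕ} (hi : 3 ≤ i) (him : i ≤ m) {ε : ℝ} (hε : 0 < ε) :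
    ∃ C : ℝ, 0 < C ∧ ∀ (a b : ℕ) (g : ℕ → ℕ), C * a ≤ b →
    ∑ j ∈ Finset.Icc 1 m, j * g j = a * b →
    C * (a : ℝ) ^ (1 + ε) ≤ g 2 → C * (a : ℝ) ^ (1 + ε) ≤ g i →
    C * (a : ℝ) ^ (3 + ε) ≤ (g 2 : ℝ) * g i →
    plethMult a b m (gw m g) ≤ plethMult b a m (gw m g) :=
  gap_mix_of hi him hε (gap_core_eps (by omega) him) (rich_mix hi him)

/-- Y5. -/
theorem gap_pure {m i : ℕ} (hi : 3 ≤ i) (him : i ≤ m) {ε : ℝ} (hε : 0 < ε) :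
    ∃ C : ℝ, 0 < C ∧ ∀ (a b : ℕ) (g : ℕ → ℕ), C * a ≤ b →
    ∑ j ∈ Finset.Icc 1 m, j * g j = a * b → C * (a : ℝ) ^ (3 / 2 + ε) ≤ g i →
    plethMult a b m (gw m g) ≤ plethMult b a m (gw m g) :=
  gap_pure_of hi him hε (gap_core_eps (by omega) him) (rich_rect hi him)

/-- Theorem Y: Foulkes' inequality for the partitions with at most `n + 3` rows whose third row
and the product of whose second and third rows are large. -/
theorem all_mix (n : ℕ) {ε : ℝ} (hε : 0 < ε) : ∃ C : ℝ, 0 < C ∧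
    ∀ (a b : ℕ) (lam : Fin (n + 3) → ℕ), C * a ≤ b → C * (a : ℝ) ^ (1 + ε) ≤ lam 2 →
    C * (a : ℝ) ^ (3 + ε) ≤ (lam 1 : ℝ) * lam 2 →
    plethMult a b (n + 3) lam ≤ plethMult b a (n + 3) lam :=
  all_mix_of (fun {_ _} h1 h2 {_} h3 => gap_mix h1 h2 h3)
    (fun {_ _} h1 h2 {_} h3 => gap_pure h1 h2 h3) n hε

/-- Theorem Z. -/
theorem all_wide (n : ℕ) {ε : ℝ} (hε : 0 < ε) : ∃ C : ℝ, 0 < C ∧
    ∀ (a b : ℕ) (lam : Fin (n + 3) → ℕ), C * (a : ℝ) ^ (1 + ε) ≤ b →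
    C * (a : ℝ) ^ (3 * n + 4 + ε) ≤ (b : ℝ) ^ (n + 2) * (lam 1 : ℝ) ^ (n + 1) →
    plethMult a b (n + 3) lam ≤ plethMult b a (n + 3) lam :=
  all_wide_of (fun n {_} h => all_mix n h) (fun {_ _ _ _ _} => hw_antitone) n hε

end Vale.Agent.P181.FR
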