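import Vale.Agent.P181.R2.H350.W5
import Vale.Agent.P181.R2.H130.SymPos2

set_option autoImplicit false

open scoped TensorProduct

namespace Vale.Agent.P181.FR

open Vale.Agent.P181 Vale.Agent.P181.H280

/-- W5: positivity at all walls. -/
theorem pos_all {m i : ℕ} (hi : 2 ≤ i) (him : i ≤ m) : ∃ a0 : ℕ, ∀ (a B : ℕ) (g : ℕ → ℕ),
    a0 ≤ a → 3 * (m + 1) * a ≤ g i → ∑ j ∈ Finset.Icc 1 m, j * g j = a * B →
    Pos B a m (gw m g) :=
  pos_all_of (fun h1 h2 h3 h4 => sym_pos h1 h2 h3 h4) hi him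

end Vale.Agent.P181.FR
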