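import Vale.Agent.P181.R2.H959.FDefs
import Mathlib.LinearAlgebra.Vandermonde
import Mathlib.LinearAlgebra.Matrix.Block

set_option autoImplicit false

open scoped TensorProduct

namespace Vale.Agent.P181.FR.H350

open Vale.Agent.P181 Vale.Agent.P181.H280 Vale.Agent.P181.H54 Vale.Agent.P181.FR MvPolynomial

theorem MP_one {B m : ℕ} : (1 : (Fin B → Fin m → ℂ) → ℂ) ∈ MP B m 0 := by
  refine Submodule.subset_span ⟨fun _ => 1, fun j => isHomogeneous_one _ _, ?_⟩
  funext p
  simp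

theorem MP_pow (hmul : ∀ {B m a a' : ℕ} {G H : (Fin B → Fin m → ℂ) → ℂ}, G ∈ MP B m a →
    H ∈ MP B m a' → G * H ∈ MP B m (a + a')) {B m a : ℕ} {G : (Fin B → Fin m → ℂ) → ℂ}
    (hG : G ∈ MP B m a) (k : ℕ) : G ^ k ∈ MP B m (k * a) := by
  induction k with
  | zero => simpa using MP_one
  | succ k ih =>
    rw [pow_succ, Nat.succ_mul]
    exact hmul ih hG

theorem prod_om {m i : ℕ} (him : i ≤ m) (x : Fin m → ℂ) (c : ℕ) :
    ∏ k, x k ^ ((c • om m i) k) = (∏ k : Fin i, x (Fin.castLE him k)) ^ c := by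
  rw [← Finset.prod_pow]
  have h : ∏ k, x k ^ ((c • om m i) k) =
      ∏ k ∈ Finset.univ.map (Fin.castLEEmb him), x k ^ ((c • om m i) k) := by
    symm
    refine Finset.prod_subset (Finset.subset_univ _) (fun k _ hk => ?_)
    have hki : ¬ ((k : ℕ) < i) := by
      intro hlt
      apply hk
      rw [Finset.mem_map]
      exact ⟨⟨k, hlt⟩, Finset.mem_univ _, by ext; simp⟩
    simp [om, hki]
  rw [h, Finset.prod_map]
  refine Finset.prod_congr rfl (fun k _ => ?_)
  have hk : (Fin.castLEEmb him k) = Fin.castLE him k := rfl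
  rw [hk]
  simp [om]

theorem sum_cast {m i : ℕ} (him : i ≤ m) (f : Fin m → ℂ) (hf : ∀ k : Fin m, i ≤ (k : ℕ) → f k = 0) :
    ∑ k, f k = ∑ k : Fin i, f (Fin.castLE him k) := by
  have h : ∑ k, f k = ∑ k ∈ Finset.univ.map (Fin.castLEEmb him), f k := by
    symm
    refine Finset.sum_subset (Finset.subset_univ _) (fun k _ hk => ?_)
    refine hf k ?_
    by_contra hlt
    apply hk
    rw [Finset.mem_map]
    exact ⟨⟨k, not_le.mp hlt⟩, Finset.mem_univ _, by ext; simp⟩
  rw [h, Finset.sum_map]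
  rfl

/-- The determinant of the first `i` coordinates of `i` points. -/
noncomputable def dt (i m : ℕ) (him : i ≤ m) : (Fin i → Fin m → ℂ) → ℂ :=
  fun p => Matrix.det (Matrix.of fun j k : Fin i => p j (Fin.castLE him k))

theorem dt_borel {i m : ℕ} (him : i ≤ m) {g : Matrix (Fin m) (Fin m) ℂ} (hg : IsBorel g)
    (p : Fin i → Fin m → ℂ) :
    dt i m him (fun j => Matrix.vecMul (p j) g) =
      (∏ k : Fin i, g (Fin.castLE him k) (Fin.castLE him k)) * dt i m him p := by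
  have h1 : (Matrix.of fun j k : Fin i => Matrix.vecMul (p j) g (Fin.castLE him k)) =
      (Matrix.of fun j k : Fin i => p j (Fin.castLE him k)) *
        (Matrix.of fun l k : Fin i => g (Fin.castLE him l) (Fin.castLE him k)) := by
    ext j k
    rw [Matrix.mul_apply]
    simp only [Matrix.of_apply]
    rw [Matrix.vecMul, dotProduct]
    refine sum_cast him _ (fun l hl => ?_)
    rw [hg.1 l (Fin.castLE him k), mul_zero]
    rw [Fin.lt_def]
    simp only [Fin.val_castLE]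
    omega
  have h2 : Matrix.det (Matrix.of fun l k : Fin i => g (Fin.castLE him l) (Fin.castLE him k)) =
      ∏ k : Fin i, g (Fin.castLE him k) (Fin.castLE him k) := by
    rw [Matrix.det_of_isUpperTriangular]
    · rfl
    · intro l k hlk
      exact hg.1 _ _ (Fin.lt_def.2 (Fin.lt_def.1 (show k < l from hlk)))
  unfold dt
  rw [h1, Matrix.det_mul, h2, mul_comm]

theorem dt_perm {i m : ℕ} (him : i ≤ m) (σ : Equiv.Perm (Fin i)) (p : Fin i → Fin m → ℂ) :
    dt i m him (fun j => p (σ j)) = ((Equiv.Perm.sign σ : ℤ) : ℂ) * dt i m him p := by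
  unfold dt
  have := Matrix.det_permute σ (Matrix.of fun j k : Fin i => p j (Fin.castLE him k))
  rw [← this]
  rfl

theorem genD_of
    (hreal : ∀ {B a m : ℕ} {lam : Fin m → ℕ} (G : (Fin B → Fin m → ℂ) → ℂ), G ∈ MP B m a →
      (∀ (σ : Equiv.Perm (Fin B)) p, G (fun j => p (σ j)) = G p) →
      (∀ g : Matrix (Fin m) (Fin m) ℂ, IsBorel g → ∀ p,
        G (fun j => Matrix.vecMul (p j) g) = (∏ i, g i i ^ lam i) * G p) →
      G ≠ 0 → Pos B a m lam)
    (hmul : ∀ {B m a a' : ℕ} {G H : (Fin B → Fin m → ℂ) → ℂ}, G ∈ MP B m a →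
      H ∈ MP B m a' → G * H ∈ MP B m (a + a'))
    (hcoord : ∀ {B m : ℕ} (c : Fin B → Fin m),
      (fun p : Fin B → Fin m → ℂ => ∏ j, p j (c j)) ∈ MP B m 1)
    (hdet : ∀ {i m : ℕ} (c : Fin i → Fin m),
      (fun p : Fin i → Fin m → ℂ => Matrix.det (Matrix.of fun j k : Fin i => p j (c k))) ∈ MP i m 1)
    {i p a n : ℕ} (him : i ≤ n + 1) (hp : Even p) (hpa : p ≤ a) :
    Pos i a (n + 1) (p • om (n + 1) i + (i * (a - p)) • om (n + 1) 1) := by
  set G : (Fin i → Fin (n + 1) → ℂ) → ℂ :=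
    dt i (n + 1) him ^ p * (fun q : Fin i → Fin (n + 1) → ℂ => ∏ j, q j 0) ^ (a - p) with hG
  have hGa : ∀ q, G q = dt i (n + 1) him q ^ p * (∏ j, q j 0) ^ (a - p) := fun q => rfl
  refine hreal G ?_ ?_ ?_ ?_
  · have h1 : dt i (n + 1) him ^ p ∈ MP i (n + 1) (p * 1) := MP_pow hmul (hdet _) p
    have h2 : (fun q : Fin i → Fin (n + 1) → ℂ => ∏ j, q j 0) ^ (a - p) ∈
        MP i (n + 1) ((a - p) * 1) := MP_pow hmul (hcoord (fun _ => 0)) (a - p)
    have h3 := hmul h1 h2
    have h4 : p * 1 + (a - p) * 1 = a := by omega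
    rw [h4] at h3
    exact h3
  · intro σ q
    rw [hGa, hGa, dt_perm, mul_pow]
    have hs : (((Equiv.Perm.sign σ : ℤ) : ℂ)) ^ p = 1 := by
      obtain ⟨k, rfl⟩ := hp
      rcases Int.units_eq_one_or (Equiv.Perm.sign σ) with h | h <;> rw [h] <;> simp
    rw [hs, one_mul]
    congr 2
    exact Equiv.prod_comp σ (fun j => q j 0)
  · intro g hg q
    rw [hGa, hGa, dt_borel him hg]
    have hv : ∀ j, Matrix.vecMul (q j) g 0 = q j 0 * g 0 0 := by
      intro j
      rw [Matrix.vecMul, dotProduct]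
      refine Finset.sum_eq_single 0 (fun l _ hl => ?_) (by simp)
      rw [hg.1 l 0 (Fin.pos_of_ne_zero hl), mul_zero]
    simp_rw [hv]
    rw [Finset.prod_mul_distrib, Finset.prod_const, Finset.card_univ, Fintype.card_fin]
    have hlam : ∏ k, g k k ^ ((p • om (n + 1) i + (i * (a - p)) • om (n + 1) 1) k) =
        (∏ k : Fin i, g (Fin.castLE him k) (Fin.castLE him k)) ^ p * (g 0 0) ^ (i * (a - p)) := by
      have e1 := prod_om him (fun k => g k k) p
      have e2 := prod_om (show 1 ≤ n + 1 by omega) (fun k => g k k) (i * (a - p))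
      have e3 : ∏ k : Fin 1, g (Fin.castLE (show 1 ≤ n + 1 by omega) k)
          (Fin.castLE (show 1 ≤ n + 1 by omega) k) = g 0 0 := by
        rw [Fin.prod_univ_one]
        rfl
      rw [← e3, ← e1, ← e2, ← Finset.prod_mul_distrib]
      refine Finset.prod_congr rfl (fun k _ => ?_)
      rw [Pi.add_apply, pow_add]
    rw [hlam, mul_pow, mul_pow, ← pow_mul]
    ring
  · intro h0
    have h1 := congrFun h0 (fun j k => ((j : ℕ) : ℂ) ^ (k : ℕ))
    rw [hGa] at h1
    have h2 : dt i (n + 1) him (fun j k => ((j : ℕ) : ℂ) ^ (k : ℕ)) ≠ 0 := by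
      have e : (Matrix.of fun j k : Fin i => ((j : ℕ) : ℂ) ^ ((Fin.castLE him k : Fin (n + 1)) : ℕ)) =
          Matrix.vandermonde (fun j : Fin i => ((j : ℕ) : ℂ)) := by
        ext j k
        simp [Matrix.vandermonde_apply]
      unfold dt
      rw [e, Matrix.det_vandermonde_ne_zero_iff]
      intro x y hxy
      simpa [Fin.ext_iff] using hxy
    simp [h2] at h1

theorem gen0_of
    (hreal : ∀ {B a m : ℕ} {lam : Fin m → ℕ} (G : (Fin B → Fin m → ℂ) → ℂ), G ∈ MP B m a →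
      (∀ (σ : Equiv.Perm (Fin B)) p, G (fun j => p (σ j)) = G p) →
      (∀ g : Matrix (Fin m) (Fin m) ℂ, IsBorel g → ∀ p,
        G (fun j => Matrix.vecMul (p j) g) = (∏ i, g i i ^ lam i) * G p) →
      G ≠ 0 → Pos B a m lam)
    (hmul : ∀ {B m a a' : ℕ} {G H : (Fin B → Fin m → ℂ) → ℂ}, G ∈ MP B m a →
      H ∈ MP B m a' → G * H ∈ MP B m (a + a'))
    (hcoord : ∀ {B m : ℕ} (c : Fin B → Fin m),
      (fun p : Fin B → Fin m → ℂ => ∏ j, p j (c j)) ∈ MP B m 1)
    (hdet : ∀ {i m : ℕ} (c : Fin i → Fin m),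
      (fun p : Fin i → Fin m → ℂ => Matrix.det (Matrix.of fun j k : Fin i => p j (c k))) ∈ MP i m 1)
    {a n : ℕ} : Pos 1 a (n + 1) (a • om (n + 1) 1) := by
  have h := genD_of hreal hmul hcoord hdet (i := 1) (p := 0) (a := a) (n := n) (by omega)
    ⟨0, rfl⟩ (by omega)
  simpa using h

end Vale.Agent.P181.FR.H350
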