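import Vale.Agent.P181.R2.H350.R4
import Vale.Agent.P181.R2.H959.WDefs

set_option autoImplicit false

open scoped TensorProduct

namespace Vale.Agent.P181.FR

open Vale.Agent.P181 Vale.Agent.P181.H280 Vale.Agent.P181.H54 MvPolynomial

namespace H350

/-- Functions of `B` points of `ℂ^m`, homogeneous of degree `e j` in the point `j`. -/
noncomputable def MPd (B m : ℕ) (e : Fin B → ℕ) : Submodule ℂ ((Fin B → Fin m → ℂ) → ℂ) :=
  Submodule.span ℂ {G | ∃ q : Fin B → MvPolynomial (Fin m) ℂ, (∀ j, (q j).IsHomogeneous (e j)) ∧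
    G = fun p => ∏ j, eval (p j) (q j)}

theorem MPd_one {B m : ℕ} : (1 : (Fin B → Fin m → ℂ) → ℂ) ∈ MPd B m 0 := by
  refine Submodule.subset_span ⟨fun _ => 1, fun j => isHomogeneous_one _ _, ?_⟩
  funext p
  simp

theorem MPd_mul {B m : ℕ} {e e' : Fin B → ℕ} {G H : (Fin B → Fin m → ℂ) → ℂ}
    (hG : G ∈ MPd B m e) (hH : H ∈ MPd B m e') : G * H ∈ MPd B m (e + e') := by
  have h1 : G * H ∈ MPd B m e * MPd B m e' := Submodule.mul_mem_mul hG hH
  refine (?_ : MPd B m e * MPd B m e' ≤ MPd B m (e + e')) h1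
  unfold MPd
  rw [Submodule.span_mul_span]
  apply Submodule.span_mono
  rintro F ⟨G', ⟨q, hq, rfl⟩, H', ⟨q', hq', rfl⟩, rfl⟩
  refine ⟨fun j => q j * q' j, fun j => (hq j).mul (hq' j), ?_⟩
  funext p
  simp [Finset.prod_mul_distrib]

theorem MPd_coord {B m : ℕ} (l : Fin B) (c : Fin m) :
    (fun p : Fin B → Fin m → ℂ => p l c) ∈ MPd B m (Pi.single l 1) := by
  refine Submodule.subset_span ⟨fun j => if j = l then X c else 1, fun j => ?_, ?_⟩
  · by_cases h : j = l
    · subst h
      simpa using isHomogeneous_X ℂ c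
    · simp only [h, if_false]
      rw [Pi.single_eq_of_ne h]
      exact isHomogeneous_one _ _
  · funext p
    rw [Finset.prod_eq_single l]
    · simp
    · intro j _ h
      simp [h]
    · intro h
      exact absurd (Finset.mem_univ _) h

theorem MPd_prod {B m : ℕ} {ι : Type} (s : Finset ι) (e : ι → Fin B → ℕ)
    (F : ι → (Fin B → Fin m → ℂ) → ℂ) (h : ∀ x ∈ s, F x ∈ MPd B m (e x)) :
    (fun p => ∏ x ∈ s, F x p) ∈ MPd B m (∑ x ∈ s, e x) := by
  classical
  induction s using Finset.induction_on with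
  | empty =>
    have h1 : (fun p : Fin B → Fin m → ℂ => ∏ x ∈ (∅ : Finset ι), F x p) = 1 := by
      funext p
      simp
    rw [Finset.sum_empty, h1]
    exact MPd_one
  | insert x s hx ih =>
    have h1 := MPd_mul (h x (Finset.mem_insert_self x s))
      (ih (fun y hy => h y (Finset.mem_insert_of_mem hy)))
    rw [Finset.sum_insert hx]
    have h2 : (fun p => ∏ y ∈ insert x s, F y p) = F x * fun p => ∏ y ∈ s, F y p := by
      funext p
      rw [Finset.prod_insert hx]
      rfl
    rw [h2]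
    exact h1

/-- The minor on the points `T`. -/
theorem MPd_minor {B m j : ℕ} (hj : j ≤ m) (T : Fin j → Fin B) :
    (fun p : Fin B → Fin m → ℂ => dt j m hj (fun x => p (T x))) ∈
      MPd B m (∑ x, Pi.single (T x) 1) := by
  have h : (fun p : Fin B → Fin m → ℂ => dt j m hj (fun x => p (T x))) =
      ∑ σ : Equiv.Perm (Fin j), ((Equiv.Perm.sign σ : ℤ) : ℂ) •
        (fun p : Fin B → Fin m → ℂ => ∏ x, p (T (σ x)) (Fin.castLE hj x)) := by
    funext p
    rw [dt, Matrix.det_apply', Finset.sum_apply]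
    rfl
  rw [h]
  refine Submodule.sum_mem _ (fun σ _ => Submodule.smul_mem _ _ ?_)
  have h1 := MPd_prod (Finset.univ : Finset (Fin j)) (fun x => Pi.single (T (σ x)) 1)
    (fun x (p : Fin B → Fin m → ℂ) => p (T (σ x)) (Fin.castLE hj x))
    (fun x _ => MPd_coord _ _)
  have h2 : ∑ x, (Pi.single (T (σ x)) 1 : Fin B → ℕ) = ∑ x, Pi.single (T x) 1 :=
    Equiv.sum_comp σ (fun x => (Pi.single (T x) 1 : Fin B → ℕ))
  rw [h2] at h1
  exact h1

/-- `j` consecutive points of the cyclic word. -/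
def seg {B : ℕ} (hB : 0 < B) (s j : ℕ) : Fin j → Fin B := fun x => ⟨(s + x) % B, Nat.mod_lt _ hB⟩

theorem seg_inj {B : ℕ} (hB : 0 < B) (s : ℕ) {j : ℕ} (hj : j ≤ B) :
    Function.Injective (seg hB s j) := by
  intro x y hxy
  have h1 : (s + x) % B = (s + y) % B := congrArg Fin.val hxy
  have h2 : (x : ℕ) % B = (y : ℕ) % B := Nat.ModEq.add_left_cancel' s h1
  rw [Nat.mod_eq_of_lt (by omega), Nat.mod_eq_of_lt (by omega)] at h2
  exact Fin.ext h2

/-- The Vandermonde point. -/
noncomputable def vp (B m : ℕ) : Fin B → Fin m → ℂ := fun l y => ((l : ℕ) : ℂ) ^ (y : ℕ)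

theorem dt_vp {B m j : ℕ} (hj : j ≤ m) {T : Fin j → Fin B} (hT : Function.Injective T) :
    dt j m hj (fun x => vp B m (T x)) ≠ 0 := by
  have h : dt j m hj (fun x => vp B m (T x)) =
      (Matrix.vandermonde (fun x => (((T x : Fin B) : ℕ) : ℂ))).det := by
    unfold dt
    congr 1
  rw [h, Matrix.det_vandermonde_ne_zero_iff]
  intro x y hxy
  have h2 : (((T x : Fin B) : ℕ) : ℂ) = (((T y : Fin B) : ℕ) : ℂ) := hxy
  exact hT (Fin.ext (by exact_mod_cast h2))

theorem word {B m : ℕ} (hmB : m ≤ B) (hB : 0 < B) : ∀ (L : List ℕ) (s : ℕ), (∀ j ∈ L, j ≤ m) →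
    ∃ G ∈ MPd B m (fun l : Fin B => ∑ x ∈ Finset.range L.sum,
        if (s + x) % B = (l : ℕ) then 1 else 0),
      HWF B m ((L.map (om m)).sum) G ∧ G (vp B m) ≠ 0 := by
  intro L
  induction L with
  | nil =>
    intro s _
    refine ⟨1, ?_, ?_, ?_⟩
    · have h1 : (fun l : Fin B => ∑ x ∈ Finset.range ([] : List ℕ).sum,
          if (s + x) % B = (l : ℕ) then 1 else 0) = 0 := by
        funext l
        simp
      rw [h1]
      exact MPd_one
    · intro g _ p
      simp
    · simp
  | cons j L ih =>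
    intro s hL
    have hj : j ≤ m := hL j List.mem_cons_self
    obtain ⟨G, hG, hw, h0⟩ := ih (s + j) (fun i hi => hL i (List.mem_cons_of_mem _ hi))
    refine ⟨(fun p : Fin B → Fin m → ℂ => dt j m hj (fun x => p (seg hB s j x))) * G, ?_, ?_, ?_⟩
    · have h1 := MPd_mul (MPd_minor hj (seg hB s j)) hG
      have h2 : (∑ x, (Pi.single (seg hB s j x) 1 : Fin B → ℕ)) +
          (fun l : Fin B => ∑ x ∈ Finset.range L.sum,
            if (s + j + x) % B = (l : ℕ) then 1 else 0) =
          fun l : Fin B => ∑ x ∈ Finset.range (j :: L).sum, if (s + x) % B = (l : ℕ) then 1 else 0 := by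
        funext l
        rw [List.sum_cons, Finset.sum_range_add, Pi.add_apply, Finset.sum_apply]
        congr 1
        · rw [Finset.sum_range (fun x => if (s + x) % B = (l : ℕ) then 1 else 0)]
          refine Finset.sum_congr rfl (fun x _ => ?_)
          rw [Pi.single_apply]
          have : (l = seg hB s j x) ↔ ((s + x) % B = (l : ℕ)) := by
            rw [Fin.ext_iff]
            exact eq_comm
          simp only [this]
        · refine Finset.sum_congr rfl (fun x _ => ?_)
          rw [add_assoc]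
      rw [h2] at h1
      exact h1
    · intro g hg p
      have h1 := hw g hg p
      have h2 := dt_borel hj hg (fun x => p (seg hB s j x))
      have h3 := prod_om hj (fun k => g k k) 1
      rw [one_smul, pow_one] at h3
      rw [Pi.mul_apply, Pi.mul_apply, h1, h2, ← h3, List.map_cons, List.sum_cons]
      have h4 : ∏ i, g i i ^ ((om m j + (L.map (om m)).sum) i) =
          (∏ i, g i i ^ (om m j i)) * ∏ i, g i i ^ ((L.map (om m)).sum i) := by
        rw [← Finset.prod_mul_distrib]
        exact Finset.prod_congr rfl (fun i _ => by rw [Pi.add_apply, pow_add])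
      rw [h4]
      ring
    · rw [Pi.mul_apply]
      exact mul_ne_zero (dt_vp hj (seg_inj hB s (hj.trans hmB))) h0

theorem sum_cyc {B : ℕ} (l : Fin B) (e : ℕ) :
    (∑ x ∈ Finset.range (e * B), if (0 + x) % B = (l : ℕ) then 1 else 0) = e := by
  induction e with
  | zero => simp
  | succ e ih =>
    rw [Nat.succ_mul, Finset.sum_range_add, ih]
    congr 1
    have h : ∀ x ∈ Finset.range B, (if (0 + (e * B + x)) % B = (l : ℕ) then 1 else 0) =
        if x = (l : ℕ) then 1 else 0 := by
      intro x hx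
      have hx' := Finset.mem_range.1 hx
      have : (0 + (e * B + x)) % B = x := by
        rw [zero_add, Nat.mul_comm e B, Nat.mul_add_mod, Nat.mod_eq_of_lt hx']
      rw [this]
    rw [Finset.sum_congr rfl h]
    simp

/-- The word with `g j` letters `j`. -/
def mkL (g : ℕ → ℕ) : ℕ → List ℕ
  | 0 => []
  | n + 1 => List.replicate (g (n + 1)) (n + 1) ++ mkL g n

theorem mkL_le (g : ℕ → ℕ) (n : ℕ) : ∀ j ∈ mkL g n, j ≤ n := by
  induction n with
  | zero => simp [mkL]
  | succ n ih =>
    intro j hj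
    rw [mkL, List.mem_append] at hj
    rcases hj with h | h
    · exact (List.eq_of_mem_replicate h).le
    · exact (ih j h).trans (Nat.le_succ n)

theorem mkL_sum (g : ℕ → ℕ) (n : ℕ) : (mkL g n).sum = ∑ j ∈ Finset.Icc 1 n, j * g j := by
  induction n with
  | zero => simp [mkL]
  | succ n ih =>
    rw [mkL, List.sum_append, ih, List.sum_replicate, Finset.sum_Icc_succ_top (by omega),
      add_comm, smul_eq_mul, mul_comm (g (n + 1))]

theorem mkL_wt (g : ℕ → ℕ) (m n : ℕ) (k : Fin m) :
    (((mkL g n).map (om m)).sum) k = ∑ j ∈ Finset.Ioc (k : ℕ) n, g j := by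
  induction n with
  | zero => simp [mkL]
  | succ n ih =>
    rw [mkL, List.map_append, List.sum_append, Pi.add_apply, ih, List.map_replicate,
      List.sum_replicate, Pi.smul_apply, smul_eq_mul]
    by_cases h : (k : ℕ) < n + 1
    · rw [Finset.sum_Ioc_succ_top (by omega)]
      simp [om, h, add_comm]
    · have e1 : Finset.Ioc (k : ℕ) n = ∅ := Finset.Ioc_eq_empty (by omega)
      have e2 : Finset.Ioc (k : ℕ) (n + 1) = ∅ := Finset.Ioc_eq_empty (by omega)
      rw [e1, e2]
      simp [om, h]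

end H350

/-- W1 (cyclic word). -/
theorem cyc {B m e : ℕ} (hmB : m ≤ B) (hB : 0 < B) (g : ℕ → ℕ)
    (hs : ∑ j ∈ Finset.Icc 1 m, j * g j = e * B) :
    ∃ G ∈ MP B m e, HWF B m (gw m g) G ∧ G ≠ 0 := by
  obtain ⟨G, hG, hw, h0⟩ := H350.word hmB hB (H350.mkL g m) 0 (H350.mkL_le g m)
  rw [H350.mkL_sum, hs] at hG
  have h1 : (fun l : Fin B => ∑ x ∈ Finset.range (e * B),
      if (0 + x) % B = (l : ℕ) then 1 else 0) = fun _ => e :=
    funext (fun l => H350.sum_cyc l e)
  rw [h1] at hG
  have h2 : ((H350.mkL g m).map (om m)).sum = gw m g :=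
    funext (fun k => H350.mkL_wt g m m k)
  rw [h2] at hw
  refine ⟨G, hG, hw, ?_⟩
  rintro rfl
  exact h0 rfl

end Vale.Agent.P181.FR
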