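import Vale.Agent.P181.R2.H959.FMul
import Vale.Agent.P181.R2.H959.WDefs
import Vale.Agent.P181.R2.H277.FR4

set_option autoImplicit false

open scoped TensorProduct

namespace Vale.Agent.P181.FR

open Vale.Agent.P181 Vale.Agent.P181.H280

namespace H350

theorem gw_add (m : ℕ) (g g' : ℕ → ℕ) : gw m (fun l => g l + g' l) = gw m g + gw m g' := by
  funext k
  simp only [gw, Pi.add_apply, Finset.sum_add_distrib]

theorem gw_single {m j : ℕ} (hj : j ≤ m) (r : ℕ) :
    gw m (fun l => if l = j then r else 0) = r • om m j := by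
  funext k
  simp only [gw, Pi.smul_apply, smul_eq_mul, om]
  rw [Finset.sum_ite_eq']
  by_cases h : (k : ℕ) < j
  · rw [if_pos (Finset.mem_Ioc.2 ⟨h, hj⟩), if_pos h, mul_one]
  · rw [if_neg (fun hh => h (Finset.mem_Ioc.1 hh).1), if_neg h, mul_zero]

theorem pos_rep {a m : ℕ} (h : Pos 1 a m (a • om m 1)) (k : ℕ) :
    Pos k a m ((k * a) • om m 1) := by
  induction k with
  | zero => simpa using Pos.zero a m
  | succ k ih =>
    have h1 := Pos.mul ih h
    rw [← add_smul] at h1
    rw [Nat.succ_mul]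
    exact h1

theorem sum_single {m j : ℕ} (hj1 : 1 ≤ j) (hj : j ≤ m) (r : ℕ) :
    ∑ l ∈ Finset.Icc 1 m, l * (if l = j then r else 0) = j * r := by
  rw [Finset.sum_eq_single j]
  · simp
  · intro l _ hl
    simp [hl]
  · intro h
    exact absurd (Finset.mem_Icc.2 ⟨hj1, hj⟩) h

end H350

open H350 in
/-- W5 from W4. -/
theorem pos_all_of
    (hsym : ∀ {B m i : ℕ}, 2 ≤ i → i ≤ m → m ≤ B → 2 * i + 1 ≤ B →
      ∃ K : ℕ, ∀ (a : ℕ) (g : ℕ → ℕ), K ≤ a → K ≤ g i →
        ∑ j ∈ Finset.Icc 1 m, j * g j = a * B → Pos B a m (gw m g))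
    {m i : ℕ} (hi : 2 ≤ i) (him : i ≤ m) : ∃ a0 : ℕ, ∀ (a B : ℕ) (g : ℕ → ℕ),
    a0 ≤ a → 3 * (m + 1) * a ≤ g i → ∑ j ∈ Finset.Icc 1 m, j * g j = a * B →
    Pos B a m (gw m g) := by
  have e1 : ∀ B, ∃ K : ℕ, m ≤ B → 2 * i + 1 ≤ B → ∀ (a : ℕ) (g : ℕ → ℕ), K ≤ a → K ≤ g i →
      ∑ j ∈ Finset.Icc 1 m, j * g j = a * B → Pos B a m (gw m g) := by
    intro B
    by_cases h : m ≤ B ∧ 2 * i + 1 ≤ B
    · obtain ⟨K, hK⟩ := hsym hi him h.1 h.2
      exact ⟨K, fun _ _ => hK⟩
    · exact ⟨0, fun h1 h2 => absurd ⟨h1, h2⟩ h⟩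
  have e2 : ∀ j, ∃ K : ℕ, 2 ≤ j → j ≤ m → ∀ (a : ℕ) (g : ℕ → ℕ), K ≤ a → K ≤ g j →
      ∑ l ∈ Finset.Icc 1 m, l * g l = a * (3 * j * m) → Pos (3 * j * m) a m (gw m g) := by
    intro j
    by_cases h : 2 ≤ j ∧ j ≤ m
    · obtain ⟨K, hK⟩ := hsym (B := 3 * j * m) h.1 h.2 (by nlinarith) (by nlinarith)
      exact ⟨K, fun _ _ => hK⟩
    · exact ⟨0, fun h1 h2 => absurd ⟨h1, h2⟩ h⟩
  choose KB hKB using e1
  choose KJ hKJ using e2
  set B1 : ℕ := m * m * (6 * m + 3) + 1 with hB1
  refine ⟨1 + ∑ B ∈ Finset.range B1, KB B + ∑ j ∈ Finset.range (m + 1), KJ j, ?_⟩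
  intro a B g ha
  have ha1 : 1 ≤ a := by omega
  have hKB' : ∀ B < B1, KB B ≤ a := fun B hB => by
    have := Finset.single_le_sum (f := KB) (fun _ _ => Nat.zero_le _) (Finset.mem_range.2 hB)
    omega
  have hKJ' : ∀ j ≤ m, KJ j ≤ a := fun j hj => by
    have := Finset.single_le_sum (f := KJ) (s := Finset.range (m + 1))
      (fun _ _ => Nat.zero_le _) (Finset.mem_range.2 (Nat.lt_succ_of_le hj))
    omega
  have hm1 : 1 ≤ m := by omega
  -- the blocks
  have hblock : ∀ j, 1 ≤ j → j ≤ m → Pos (3 * j * m) a m ((3 * m * a) • om m j) := by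
    intro j hj1 hjm
    rcases hj1.eq_or_lt with h | h
    · subst h
      obtain ⟨n, rfl⟩ : ∃ n, m = n + 1 := ⟨m - 1, by omega⟩
      have h1 := pos_rep (gen0 (a := a) (n := n)) (3 * 1 * (n + 1))
      simpa using h1
    · have h1 := hKJ j h hjm a (fun l => if l = j then 3 * m * a else 0) (hKJ' j hjm)
        (by
          rw [if_pos rfl]
          exact (hKJ' j hjm).trans (by nlinarith))
        (by rw [sum_single hj1 hjm]; ring)
      rwa [gw_single hjm] at h1
  clear ha
  induction B using Nat.strong_induction_on generalizing g with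
  | _ B ih =>
    intro hgi hsum
    by_cases hB : B < B1
    · -- small
      have h1 : i * g i ≤ ∑ j ∈ Finset.Icc 1 m, j * g j :=
        Finset.single_le_sum (f := fun j => j * g j) (fun _ _ => Nat.zero_le _)
          (Finset.mem_Icc.2 ⟨by omega, him⟩)
      rw [hsum] at h1
      have h2 : i * (3 * (m + 1) * a) ≤ a * B := (Nat.mul_le_mul_left i hgi).trans h1
      have h3 : i * (3 * (m + 1)) ≤ B := by
        have h4 : a * (i * (3 * (m + 1))) ≤ a * B := by
          calc a * (i * (3 * (m + 1))) = i * (3 * (m + 1) * a) := by ring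
            _ ≤ a * B := h2
        exact Nat.le_of_mul_le_mul_left h4 (by omega)
      refine hKB B (by nlinarith) (by nlinarith) a g (hKB' B hB) ?_ hsum
      refine (hKB' B hB).trans (le_trans ?_ hgi)
      nlinarith
    · -- large
      have hex : ∃ j, 1 ≤ j ∧ j ≤ m ∧ 3 * m * a + (if j = i then 3 * (m + 1) * a else 0) ≤ g j := by
        by_contra hcon
        push Not at hcon
        have h1 : ∀ j ∈ Finset.Icc 1 m, j * g j ≤ m * ((6 * m + 3) * a) := by
          intro j hj
          have hj' := Finset.mem_Icc.1 hj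
          have h2 := hcon j hj'.1 hj'.2
          refine Nat.mul_le_mul hj'.2 (h2.le.trans ?_)
          split_ifs
          · nlinarith
          · nlinarith
        have h2 := Finset.sum_le_sum h1
        rw [hsum, Finset.sum_const, Nat.card_Icc, smul_eq_mul] at h2
        have h3 : a * B ≤ a * (m * m * (6 * m + 3)) := by
          calc a * B ≤ (m + 1 - 1) * (m * ((6 * m + 3) * a)) := h2
            _ = a * (m * m * (6 * m + 3)) := by rw [Nat.add_sub_cancel]; ring
        have h4 : B ≤ m * m * (6 * m + 3) := Nat.le_of_mul_le_mul_left h3 (by omega)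
        omega
      obtain ⟨j, hj1, hjm, hgj⟩ := hex
      set g' : ℕ → ℕ := fun l => if l = j then g l - 3 * m * a else g l with hg'
      have hgg : g = fun l => g' l + (if l = j then 3 * m * a else 0) := by
        funext l
        simp only [hg']
        by_cases h : l = j
        · subst h
          rw [if_pos rfl, if_pos rfl]
          omega
        · rw [if_neg h, if_neg h, add_zero]
      have hs' : ∑ l ∈ Finset.Icc 1 m, l * g' l + j * (3 * m * a) = a * B := by
        rw [← hsum, hgg, ← sum_single hj1 hjm (3 * m * a), ← Finset.sum_add_distrib]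
        exact Finset.sum_congr rfl (fun l _ => by simp only [mul_add])
      have hjB : 3 * j * m ≤ B := by
        have h1 : a * (3 * j * m) ≤ a * B := by
          calc a * (3 * j * m) = j * (3 * m * a) := by ring
            _ ≤ a * B := by rw [← hs']; exact Nat.le_add_left _ _
        exact Nat.le_of_mul_le_mul_left h1 (by omega)
      obtain ⟨B', hB'⟩ := Nat.exists_eq_add_of_le hjB
      have hpos : 0 < 3 * j * m := by positivity
      have hs2 : ∑ l ∈ Finset.Icc 1 m, l * g' l = a * B' := by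
        have h1 : a * B = a * B' + j * (3 * m * a) := by rw [hB']; ring
        omega
      have hgi' : 3 * (m + 1) * a ≤ g' i := by
        simp only [hg']
        by_cases h : i = j
        · rw [if_pos h]
          rw [if_pos h.symm, ← h] at hgj
          omega
        · rw [if_neg h]
          exact hgi
      have h1 := ih B' (by omega) g' hgi' hs2
      have h2 := Pos.mul h1 (hblock j hj1 hjm)
      have h3 : gw m g = gw m g' + (3 * m * a) • om m j := by
        rw [← gw_single hjm, ← gw_add, ← hgg]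
      rw [h3, hB', add_comm]
      exact h2

end Vale.Agent.P181.FR
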