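import Vale.Agent.P181.R2.H959.WDefs

set_option autoImplicit false

open scoped TensorProduct

namespace Vale.Agent.P181.FR

open Vale.Agent.P181 Vale.Agent.P181.H280

/-- W8 from W6 and W7. -/
theorem rich_rect_of
    (h6 : ∀ {d c m s R : ℕ} {nu : Fin m → ℕ}
      (G : Fin R → Fin s → ((Fin (d + 1) → Fin m → ℂ) → ℂ)), (∀ r k, G r k ∈ MP (d + 1) m c) →
      (∀ r k (σ : Equiv.Perm (Fin (d + 1))) p, G r k (fun j => p (σ j)) = G r k p) →
      (∀ r k, HWF (d + 1) m nu (G r k)) →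
      (∀ r k p (i j : Fin (d + 1)), i ≠ j → p i = p j → G r k p = 0) →
      ∀ (P : Fin d → Fin m → ℂ),
      (LinearIndependent ℂ (fun rk : Fin R × Fin s => fun q : Fin m → ℂ =>
        G rk.1 rk.2 (Fin.snoc (α := fun _ => Fin m → ℂ) P q))) →
      s ^ R ≤ plethMult ((d + 1) * R) c m (R • nu))
    (h7 : ∀ {m i : ℕ}, 3 ≤ i → i ≤ m → ∃ (N : ℕ) (P : Fin (2 * i - 1) → Fin m → ℂ),
      ∀ c h : ℕ, N * (h + 1) ≤ c →
      ∃ G : Fin h → Fin h → ((Fin (2 * i - 1 + 1) → Fin m → ℂ) → ℂ),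
        (∀ r k, G r k ∈ MP (2 * i - 1 + 1) m (2 * c)) ∧
        (∀ r k (σ : Equiv.Perm (Fin (2 * i - 1 + 1))) p, G r k (fun j => p (σ j)) = G r k p) ∧
        (∀ r k, HWF (2 * i - 1 + 1) m ((4 * c) • om m i) (G r k)) ∧
        (∀ r k p (u v : Fin (2 * i - 1 + 1)), u ≠ v → p u = p v → G r k p = 0) ∧
        LinearIndependent ℂ (fun rk : Fin h × Fin h => fun q : Fin m → ℂ =>
          G rk.1 rk.2 (Fin.snoc (α := fun _ => Fin m → ℂ) P q)))
    {m i : ℕ} (hi : 3 ≤ i) (him : i ≤ m) : ∃ N : ℕ, ∀ c h R s : ℕ,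
    N * (h + 1) ≤ c → R * s ≤ h * h →
    s ^ R ≤ plethMult (2 * i * R) (2 * c) m ((4 * c * R) • om m i) := by
  obtain ⟨N, P, hN⟩ := h7 hi him
  refine ⟨N, fun c h R s hc hRs => ?_⟩
  obtain ⟨G, hG, hsy, hw, hd, hli⟩ := hN c h hc
  have hcard : Fintype.card (Fin R × Fin s) ≤ Fintype.card (Fin h × Fin h) := by
    simpa using hRs
  obtain ⟨f⟩ := Function.Embedding.nonempty_of_card_le hcard
  have h1 := h6 (fun r k => G (f (r, k)).1 (f (r, k)).2) (fun r k => hG _ _)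
    (fun r k => hsy _ _) (fun r k => hw _ _) (fun r k => hd _ _) P
    (hli.comp f f.injective)
  have h2 : 2 * i - 1 + 1 = 2 * i := by omega
  rw [h2] at h1
  have h3 : R • ((4 * c) • om m i) = (4 * c * R) • om m i := by
    rw [smul_smul, mul_comm]
  rwa [h3] at h1

end Vale.Agent.P181.FR
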