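import Vale.Agent.P181.R2.H959.WDefs
import Vale.Agent.P181.R2.H923.W6

set_option autoImplicit false

open scoped TensorProduct

namespace Vale.Agent.P181.FR

open Vale.Agent.P181 Vale.Agent.P181.H280

/-- Y2 from Y1. -/
theorem rich_mix_of
    (h1 : ∀ {m i : ℕ}, 3 ≤ i → i ≤ m →
      ∃ (N : ℕ) (P : Fin (2 * i - 1) → Fin m → ℂ), 0 < N ∧ ∀ h1 h2 : ℕ,
      ∃ G : Fin h1 → Fin h2 → ((Fin (2 * i - 1 + 1) → Fin m → ℂ) → ℂ),
        (∀ r k, G r k ∈ MP (2 * i - 1 + 1) m (2 * N * (h1 + 1) + 2 * N * (h2 + 1))) ∧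
        (∀ r k (σ : Equiv.Perm (Fin (2 * i - 1 + 1))) p, G r k (fun j => p (σ j)) = G r k p) ∧
        (∀ r k, HWF (2 * i - 1 + 1) m
          ((2 * i * N * (h1 + 1)) • om m 2 + (4 * N * (h2 + 1)) • om m i) (G r k)) ∧
        (∀ r k p (u v : Fin (2 * i - 1 + 1)), u ≠ v → p u = p v → G r k p = 0) ∧
        LinearIndependent ℂ (fun rk : Fin h1 × Fin h2 => fun q : Fin m → ℂ =>
          G rk.1 rk.2 (Fin.snoc (α := fun _ => Fin m → ℂ) P q)))
    {m i : ℕ} (hi : 3 ≤ i) (him : i ≤ m) : ∃ N : ℕ, 0 < N ∧ ∀ h1 h2 R s : ℕ,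
    R * s ≤ h1 * h2 →
    s ^ R ≤ plethMult (2 * i * R) (2 * N * (h1 + 1) + 2 * N * (h2 + 1)) m
      ((2 * i * N * (h1 + 1) * R) • om m 2 + (4 * N * (h2 + 1) * R) • om m i) := by
  obtain ⟨N, P, hN0, hN⟩ := h1 hi him
  refine ⟨N, hN0, fun a1 a2 R s hRs => ?_⟩
  obtain ⟨G, hG, hsy, hw, hd, hli⟩ := hN a1 a2
  have hcard : Fintype.card (Fin R × Fin s) ≤ Fintype.card (Fin a1 × Fin a2) := by
    simpa using hRs
  obtain ⟨f⟩ := Function.Embedding.nonempty_of_card_le hcard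
  have h6 := rich_of_family (fun r k => G (f (r, k)).1 (f (r, k)).2) (fun r k => hG _ _)
    (fun r k => hsy _ _) (fun r k => hw _ _) (fun r k => hd _ _) P
    (hli.comp f f.injective)
  have h2 : 2 * i - 1 + 1 = 2 * i := by omega
  rw [h2] at h6
  have h3 : R • ((2 * i * N * (a1 + 1)) • om m 2 + (4 * N * (a2 + 1)) • om m i) =
      (2 * i * N * (a1 + 1) * R) • om m 2 + (4 * N * (a2 + 1) * R) • om m i := by
    rw [smul_add, smul_smul, smul_smul, mul_comm R, mul_comm R]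
  rwa [h3] at h6

end Vale.Agent.P181.FR
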